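import Vale.Agent.P029.Final

namespace Vale.Agent.Results.P029.A_full

open Vale.Agent.P029

/-- The Deligne–Drinfeld conjecture. -/
theorem result : (∃ D : L → LieDerivation ℚ L L, IsD D) ∧
    ∀ D : L → LieDerivation ℚ L L, IsD D →
      (∀ ψ ∈ W, ∀ φ ∈ W, ihara D ψ φ ∈ W) ∧
      ∃ σ : ℕ → L, (∀ k, σ k ∈ W ⊓ Lw (2 * k + 3)) ∧
        ∃ Φ : F →ₗ[ℚ] L, (∀ k, Φ (e k) = σ k) ∧ (∀ a b, Φ ⁅a, b⁆ = ihara D (Φ a) (Φ b)) ∧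
          Function.Injective Φ ∧ LinearMap.range Φ = W ∧ (∀ n, (Fw n).map Φ = W ⊓ Lw n) ∧
          ∀ b : ℕ → L, (∀ n, b n ∈ W ⊓ Lw n) → ∃! a : ℕ → F, ∀ n, a n ∈ Fw n ∧ Φ (a n) = b n := by
  refine ⟨main.1, fun D hD => ?_⟩
  obtain ⟨h1, σ, h2, Φ, h3, h4, h5, h6, h7⟩ := main.2 D hD
  refine ⟨h1, σ, h2, Φ, h3, h4, h5, h6, h7, fun b hb => ?_⟩
  have : ∀ n, ∃ a ∈ Fw n, Φ a = b n := fun n => by
    have := hb n
    rw [← h7] at this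
    exact this
  choose a ha ha' using this
  exact ⟨a, fun n => ⟨ha n, ha' n⟩, fun a' h => funext fun n => h5 ((h n).2.trans (ha' n).symm)⟩

end Vale.Agent.Results.P029.A_full
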